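import Vale.Agent.P100.Main

open Laplacian

namespace Vale.Agent.Results.P100.Full

/-- The Henon-Lane-Emden conjecture: for subcritical parameters there is no positive entire
solution, in every dimension `n ≥ 2` and for all real weights. -/
theorem result (n : ℕ) (hn : 2 ≤ n) (p q A B : ℝ) (hp : 0 < p) (hq : 0 < q)
    (hsub : ((n : ℝ) + A) / (p + 1) + ((n : ℝ) + B) / (q + 1) > (n : ℝ) - 2) :
    ¬ ∃ u v : EuclideanSpace ℝ (Fin n) → ℝ,
      ContDiffOn ℝ 2 u {0}ᶜ ∧ ContDiffOn ℝ 2 v {0}ᶜ ∧ Continuous u ∧ Continuous v ∧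
      (∀ x, 0 < u x) ∧ (∀ x, 0 < v x) ∧
      (∀ x, x ≠ 0 → -Δ u x = ‖x‖ ^ A * v x ^ p) ∧
      (∀ x, x ≠ 0 → -Δ v x = ‖x‖ ^ B * u x ^ q) := by
  rintro ⟨u, v, hu, hv, cu, cv, u0, v0, h1, h2⟩
  exact Vale.Agent.P100.main (by simpa using hn) hp hq (by simpa using hsub) hu hv cu cv u0 v0 h1 h2

end Vale.Agent.Results.P100.Full
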